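import Vale.Agent.H5.P018.Upper

namespace Vale.Agent.Results.P018.A_UpperDensity

open Polynomial Vale.Agent.H5.P018

/-- For every `f ∈ ℤ[x]` and every exponent `k`, the Euler product
`c_{f,k} = ∏_p (1 - ρ_f(p^k) / p^k)` over all primes converges (unconditionally), and the number
`S_{f,k}(X)` of `1 ≤ n ≤ X` with `f(n)` `k`-power-free satisfies
`S_{f,k}(X) ≤ (c_{f,k} + ε) X` for all large `X`: the upper-bound half of the predicted
asymptotic `S_{f,k}(X) = c_{f,k} X + o(X)`, for all degrees and exponents. -/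
theorem result (f : ℤ[X]) (k : ℕ) :
    Multipliable (fun p : Nat.Primes => 1 - (rootCount f ((p : ℕ) ^ k) : ℝ) / ((p : ℕ) : ℝ) ^ k) ∧
    ∀ ε : ℝ, 0 < ε → ∃ X₀ : ℕ, ∀ X : ℕ, X₀ ≤ X →
      (powerFreeCount f k X : ℝ) ≤
        ((∏' p : Nat.Primes, (1 - (rootCount f ((p : ℕ) ^ k) : ℝ) / ((p : ℕ) : ℝ) ^ k)) + ε) * X :=
  upper_bound_main f k

end Vale.Agent.Results.P018.A_UpperDensity
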