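import Vale.Agent.H5.P018.Upper

namespace Vale.Agent.Results.P018.A_UpperDensityLimsupForm

open Polynomial Vale.Agent.H5.P018

/-- For every `f ∈ ℤ[x]` and every exponent `k`: the Euler product
`c_{f,k} = ∏_p (1 - ρ_f(p^k) / p^k)` over all primes converges (unconditionally); the number
`S_{f,k}(X)` of `1 ≤ n ≤ X` with `f(n)` `k`-power-free satisfies `S_{f,k}(X) ≤ (c_{f,k} + ε) X`
for all large `X`; and, in density form, `S_{f,k}(X) / X - c_{f,k} ≤ ε` for all large `X`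
(so `limsup S_{f,k}(X) / X ≤ c_{f,k}`). The third part follows from the second. -/
theorem result (f : ℤ[X]) (k : ℕ) :
    Multipliable (fun p : Nat.Primes => 1 - (rootCount f ((p : ℕ) ^ k) : ℝ) / ((p : ℕ) : ℝ) ^ k) ∧
    (∀ ε : ℝ, 0 < ε → ∃ X₀ : ℕ, ∀ X : ℕ, X₀ ≤ X →
      (powerFreeCount f k X : ℝ) ≤
        ((∏' p : Nat.Primes, (1 - (rootCount f ((p : ℕ) ^ k) : ℝ) / ((p : ℕ) : ℝ) ^ k)) + ε) * X) ∧
    (∀ ε : ℝ, 0 < ε → ∃ X₀ : ℕ, 1 ≤ X₀ ∧ ∀ X : ℕ, X₀ ≤ X →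
      (powerFreeCount f k X : ℝ) / (X : ℝ) -
        (∏' p : Nat.Primes, (1 - (rootCount f ((p : ℕ) ^ k) : ℝ) / ((p : ℕ) : ℝ) ^ k)) ≤ ε) := by
  obtain ⟨h1, h2⟩ := upper_bound_main f k
  refine ⟨h1, h2, fun ε hε => ?_⟩
  obtain ⟨X₀, h⟩ := h2 ε hε
  refine ⟨max X₀ 1, le_max_right _ _, fun X hX => ?_⟩
  have hX0 : X₀ ≤ X := le_trans (le_max_left _ _) hX
  have hX1 : (1 : ℝ) ≤ (X : ℝ) := by exact_mod_cast le_trans (le_max_right _ _) hX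
  have h3 : (powerFreeCount f k X : ℝ) ≤
      ((∏' p : Nat.Primes, (1 - (rootCount f ((p : ℕ) ^ k) : ℝ) / ((p : ℕ) : ℝ) ^ k)) + ε) * X :=
    h X hX0
  rw [sub_le_iff_le_add, div_le_iff₀ (by linarith)]
  have h4 : ((∏' p : Nat.Primes, (1 - (rootCount f ((p : ℕ) ^ k) : ℝ) / ((p : ℕ) : ℝ) ^ k)) + ε) * (X : ℝ)
      = (ε + ∏' p : Nat.Primes, (1 - (rootCount f ((p : ℕ) ^ k) : ℝ) / ((p : ℕ) : ℝ) ^ k)) * (X : ℝ) := by
    ring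
  linarith

end Vale.Agent.Results.P018.A_UpperDensityLimsupForm
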